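import Vale.Agent.P097.H103.T.LatAl
import Vale.Agent.P097.H845.St.Chain

/-!
# P097 / block (T), straight line: the ancestors of the pick, producer of the hypothesis (BG)

`start_st`: at every scale `h` of the nested apex there is a mid-level non R2 point of the piece
of every window `(y, x, h)` with `|y|, |x| ≤ 2 h`, with uniform bounds of `Im al` and `p`.
`bg_st`: the same at every scale `h ≥ D` above the pick: above `2 ^ (-m)` by the nested apex, below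
by the zone of the exit lemma.
-/

set_option linter.all false

open Complex Metric Filter Topology Set

namespace Vale.Agent.P097.H557.St

open Vale.Agent.P097.TC Vale.Agent.P097.H226.W Vale.Agent.P097.H845.St

/-- a point of the quadrant at relative depth `om₀` in the piece of a window nearby -/
theorem mem_pc {X₀ om₀ X om y x h : ℝ} (hX : X₀ + 2 ≤ X) (hom : om ≤ om₀) (hh : 0 < h)
    (hy : |y| ≤ 2 * h) (hx : |x| ≤ 2 * h) {β : ℂ × ℂ} (h1 : om₀ * h ≤ -β.1.im)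
    (h2 : om₀ * h ≤ β.2.im) (h3 : ‖β‖ ≤ X₀ * h) : β ∈ Pc X om y x h := by
  have a1 : ‖β.1‖ ≤ X₀ * h := (norm_fst_le β).trans h3
  have a2 : ‖β.2‖ ≤ X₀ * h := (norm_snd_le β).trans h3
  have b1 : |β.1.re| ≤ X₀ * h := (Complex.abs_re_le_norm _).trans a1
  have b2 : |β.1.im| ≤ X₀ * h := (Complex.abs_im_le_norm _).trans a1
  have b3 : |β.2.re| ≤ X₀ * h := (Complex.abs_re_le_norm _).trans a2
  have b4 : |β.2.im| ≤ X₀ * h := (Complex.abs_im_le_norm _).trans a2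
  have c1 : (X₀ + 2) * h ≤ X * h := mul_le_mul_of_nonneg_right hX hh.le
  have c2 : om * h ≤ om₀ * h := mul_le_mul_of_nonneg_right hom hh.le
  refine ⟨?_, ?_, by linarith, ?_, by linarith, ?_⟩
  · refine (abs_sub _ _).trans ?_
    linarith
  · refine (abs_sub _ _).trans ?_
    linarith
  · have := (abs_le.1 b2).1
    linarith
  · have := (abs_le.1 b4).2
    linarith

/-- **start**: mid-level non R2 points with bounded line, in every piece near the nested apex -/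
theorem start_st (hL : H226.W.Lat) {Λ b : ℝ} {F q : ℂ → ℂ} (hc : Cv Λ b F q) (hg : Grw b F q)
    {e₀ X₀ om₀ V₁ : ℝ} (he₀ : 0 < e₀) (hX₀ : 1 ≤ X₀) (hom₀ : 0 < om₀) (hom₁ : om₀ ≤ 1) :
    ∃ R : ℝ, 0 ≤ R ∧ ∀ {al p th : ℂ × ℂ → ℂ}, SQ Λ b F q 1 al p th →
      ∀ h : ℝ, 0 < h → (X₀ + 5) * h ≤ 1 → Md b F th X₀ om₀ e₀ h → |Vq F al th h| ≤ V₁ →
      ∃ β : ℂ × ℂ, om₀ * h ≤ -β.1.im ∧ om₀ * h ≤ β.2.im ∧ ‖β‖ ≤ X₀ * h ∧
        (∀ X om y x : ℝ, X₀ + 2 ≤ X → om ≤ om₀ → |y| ≤ 2 * h → |x| ≤ 2 * h →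
          β ∈ Pc X om y x h) ∧
        |(th β).im| ≤ b - e₀ ∧ e₀ ≤ ‖deriv F (th β)‖ ∧ |(al β).im| ≤ R ∧ ‖p β‖ ≤ R := by
  obtain ⟨K, hK, N, hN, hLL⟩ := H103.T.lat_al hL hc hg 1 one_pos e₀ X₀ om₀ he₀ hX₀ hom₀ hom₁
  set R₀ : ℝ := K * om₀⁻¹ ^ N * (1 + V₁) + Real.exp (K * om₀⁻¹ ^ (1 : ℝ)) with hR₀
  refine ⟨Real.exp R₀, (Real.exp_pos _).le, fun {al p th} W h hh hXh hM hV => ?_⟩
  obtain ⟨β, b1, b2, b3, b4, b5⟩ := hM
  obtain ⟨c1, -, c3⟩ := hLL W h hh hXh ⟨β, b1, b2, b3, b4, b5⟩ om₀ hom₀ hom₁ β b1 b2 b3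
  have hle : K * om₀⁻¹ ^ N * (1 + |Vq F al th h|) + Real.exp (K * om₀⁻¹ ^ (1 : ℝ)) ≤ R₀ := by
    have h0 : 0 ≤ K * om₀⁻¹ ^ N := by
      have := inv_pos.2 hom₀
      have : 0 ≤ om₀⁻¹ ^ N := Real.rpow_nonneg this.le _
      positivity
    have := mul_le_mul_of_nonneg_left (add_le_add_right hV 1) h0
    rw [hR₀]
    linarith
  refine ⟨β, b1, b2, b3, fun X om y x hX hom hy hx => mem_pc hX hom hh hy hx b1 b2 b3, b4, b5,
    ?_, ?_⟩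
  · refine c1.trans (hle.trans ?_)
    have := Real.add_one_le_exp R₀
    linarith
  · exact c3.trans (Real.exp_le_exp.2 hle)

/-- **core of (BG)**, for any property `Q` of points -/
theorem bg_core {Q : ℂ × ℂ → Prop} {X₀ om₀ X om S : ℝ} (hX₀ : 0 ≤ X₀) (hX : X₀ + 2 ≤ X)
    (hom : om ≤ om₀) (hom₁ : om ≤ 1)
    (hN : ∀ h : ℝ, 0 < h → h ≤ S → ∃ β : ℂ × ℂ, om₀ * h ≤ -β.1.im ∧ om₀ * h ≤ β.2.im ∧
      ‖β‖ ≤ X₀ * h ∧ Q β)
    {m n i₀ : ℕ} {y' y x r : ℝ} (hy' : |y'| ≤ (1 / 2 : ℝ) ^ m)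
    (hZ : ∀ i < n, ∀ z ∈ Pc X om y' 0 ((1 / 2 : ℝ) ^ (m + i)), Q z) (hi₀ : i₀ ≤ n) (hr : 0 < r)
    {h : ℝ} (hD : |y' - y| + |x| + (1 / 2 : ℝ) ^ (m + i₀) + r ≤ h) (hS : h ≤ S) :
    ∃ β ∈ Pc X om y x h, Q β := by
  have p0 : 0 < (1 / 2 : ℝ) ^ (m + i₀) := by positivity
  have q1 := abs_nonneg (y' - y)
  have q2 := abs_nonneg x
  have hh : 0 < h := by linarith
  have hX2 : 2 ≤ X := by linarith
  rcases le_or_gt ((1 / 2 : ℝ) ^ m) h with hc | hc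
  · obtain ⟨β, b1, b2, b3, b4⟩ := hN h hh hS
    refine ⟨β, mem_pc hX hom hh ?_ ?_ b1 b2 b3, b4⟩
    · have : |y| ≤ |y'| + |y' - y| := by
        have := abs_sub_abs_le_abs_sub y y'
        rw [abs_sub_comm y y'] at this
        linarith
      linarith
    · linarith
  · have hex : ∃ j : ℕ, (1 / 2 : ℝ) ^ (m + j) ≤ h := ⟨i₀, by linarith⟩
    classical
    set j := Nat.find hex with hj
    have h1 : (1 / 2 : ℝ) ^ (m + j) ≤ h := Nat.find_spec hex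
    have hj0 : j ≠ 0 := by
      intro h0
      rw [h0, add_zero] at h1
      linarith
    obtain ⟨i, hi⟩ := Nat.exists_eq_succ_of_ne_zero hj0
    have h2 : ¬ (1 / 2 : ℝ) ^ (m + i) ≤ h := Nat.find_min hex (by omega)
    have hji : j ≤ i₀ := Nat.find_min' hex (by linarith)
    have hin : i < n := by omega
    have h3 : (1 / 2 : ℝ) ^ (m + i) ≤ 2 * h := by
      rw [hi, Nat.succ_eq_add_one, ← add_assoc, pow_succ] at h1
      linarith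
    have h4 : 0 < (1 / 2 : ℝ) ^ (m + i) := by positivity
    have h5 : 2 * h ≤ X * h := mul_le_mul_of_nonneg_right hX2 hh.le
    have h6 : om * h ≤ 1 * h := mul_le_mul_of_nonneg_right hom₁ hh.le
    refine ⟨pt y' 0 ((1 / 2 : ℝ) ^ (m + i)), pt_mem_Pc ?_ ?_ ?_ ?_, hZ i hin _ (pt_mem_Pc ?_ ?_
      ?_ ?_)⟩
    · linarith
    · rw [zero_sub, abs_neg]; linarith
    · linarith
    · linarith
    · rw [sub_self, abs_zero]; positivity
    · rw [sub_self, abs_zero]; positivity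
    · have := mul_le_mul_of_nonneg_right hom₁ h4.le
      linarith
    · have := mul_le_mul_of_nonneg_right hX2 h4.le
      linarith

/-- **(BG)** : mid-level non R2 points with bounded line, in the pieces over the apex of the pick, at
all scales above the distance of the pick from its base -/
theorem bg_st (hL : H226.W.Lat) {Λ b : ℝ} {F q : ℂ → ℂ} (hc : Cv Λ b F q) (hg : Grw b F q)
    {e₀ X₀ om₀ V₁ : ℝ} (he₀ : 0 < e₀) (hX₀ : 1 ≤ X₀) (hom₀ : 0 < om₀) (hom₁ : om₀ ≤ 1) :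
    ∃ R : ℝ, 0 ≤ R ∧ ∀ {al p th : ℂ × ℂ → ℂ}, SQ Λ b F q 1 al p th →
      ∀ S : ℝ, (X₀ + 5) * S ≤ 1 →
      (∀ h : ℝ, 0 < h → h ≤ S → Md b F th X₀ om₀ e₀ h ∧ |Vq F al th h| ≤ V₁) →
      ∀ X om : ℝ, X₀ + 2 ≤ X → om ≤ om₀ →
      ∀ e₁ R₁ : ℝ, ∀ m n i₀ : ℕ, ∀ y' y x r : ℝ, |y'| ≤ (1 / 2 : ℝ) ^ m →
      (∀ i < n, ∀ z ∈ Pc X om y' 0 ((1 / 2 : ℝ) ^ (m + i)),
        |(th z).im| ≤ b - e₁ ∧ e₁ ≤ ‖deriv F (th z)‖ ∧ |(al z).im| ≤ R₁ ∧ ‖p z‖ ≤ R₁) →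
      i₀ ≤ n → 0 < r → ∀ h : ℝ, |y' - y| + |x| + (1 / 2 : ℝ) ^ (m + i₀) + r ≤ h → h ≤ S →
      ∃ β ∈ Pc X om y x h, |(th β).im| ≤ b - min e₀ e₁ ∧ min e₀ e₁ ≤ ‖deriv F (th β)‖ ∧
        |(al β).im| ≤ max R R₁ ∧ ‖p β‖ ≤ max R R₁ := by
  obtain ⟨R, hR, hst⟩ := start_st hL hc hg (V₁ := V₁) he₀ hX₀ hom₀ hom₁
  refine ⟨R, hR, fun {al p th} W S hS hM X om hX hom e₁ R₁ m n i₀ y' y x r hy' hZ hi hr h hD
    hhS => ?_⟩
  refine bg_core (Q := fun β => |(th β).im| ≤ b - min e₀ e₁ ∧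
    min e₀ e₁ ≤ ‖deriv F (th β)‖ ∧ |(al β).im| ≤ max R R₁ ∧ ‖p β‖ ≤ max R R₁)
    (by linarith) hX hom (hom.trans hom₁) ?_ hy' ?_ hi hr hD hhS
  · intro t ht htS
    have h1 : (X₀ + 5) * t ≤ 1 := by
      have : (X₀ + 5) * t ≤ (X₀ + 5) * S := mul_le_mul_of_nonneg_left htS (by linarith)
      linarith
    obtain ⟨β, b1, b2, b3, -, b5, b6, b7, b8⟩ := hst W t ht h1 (hM t ht htS).1 (hM t ht htS).2
    refine ⟨β, b1, b2, b3, ?_, (min_le_left _ _).trans b6, b7.trans (le_max_left _ _),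
      b8.trans (le_max_left _ _)⟩
    have := min_le_left e₀ e₁
    linarith
  · intro i hi z hz
    obtain ⟨z1, z2, z3, z4⟩ := hZ i hi z hz
    refine ⟨?_, (min_le_right _ _).trans z2, z3.trans (le_max_right _ _),
      z4.trans (le_max_right _ _)⟩
    have := min_le_right e₀ e₁
    linarith

end Vale.Agent.P097.H557.St
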